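import Vale.Agent.P223.R2.H84.Spec
import Vale.Agent.P223.X.WtX
import Vale.Agent.P223.H.Norm

/-! Block B4b : the pointwise estimate for pulled back functions. -/

namespace Vale.Agent.P223.R2.H359.Pt

open scoped ContDiff Topology ENNReal
open MeasureTheory Vale.Agent.P223.H Vale.Agent.P223.X Vale.Agent.P223.R2.H84

/-- The matrix of a continuous linear map. -/
noncomputable def mat {n : ℕ} (L : E n →L[ℝ] E n) : Matrix (Fin n) (Fin n) ℝ :=
  Matrix.of fun i k => L (Pi.single k 1) i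

theorem det_mat {n : ℕ} (L : E n →L[ℝ] E n) : (mat L).det = L.det := by
  have h : mat L = LinearMap.toMatrix' (L : E n →ₗ[ℝ] E n) := by
    ext i k
    rw [LinearMap.toMatrix'_apply]
    rfl
  rw [h, LinearMap.det_toMatrix']

theorem jdet_congr {n : ℕ} {f g : Fin n → E n → ℝ} {y : E n} (h : ∀ k, f k =ᶠ[𝓝 y] g k) :
    jdet f y = jdet g y := by
  unfold jdet
  congr 1
  ext i k
  rw [Matrix.of_apply, Matrix.of_apply, H.pd, H.pd, (h i).fderiv_eq]

theorem pd_comp {n : ℕ} {u : E n → ℝ} {Φ : E n → E n} {y : E n} (hu : DifferentiableAt ℝ u (Φ y))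
    (hΦ : DifferentiableAt ℝ Φ y) (k : Fin n) : H.pd k (fun y' => u (Φ y')) y =
      ∑ m, H.pd m u (Φ y) * mat (fderiv ℝ Φ y) m k := by
  have h1 : fderiv ℝ (fun y' => u (Φ y')) y = (fderiv ℝ u (Φ y)).comp (fderiv ℝ Φ y) :=
    fderiv_comp y hu hΦ
  simp only [H.pd, h1, ContinuousLinearMap.comp_apply, mat, Matrix.of_apply]
  set w := fderiv ℝ Φ y (Pi.single k 1)
  have hw : w = ∑ m, w m • (Pi.single m (1 : ℝ) : E n) := by
    ext j
    simp [Finset.sum_apply, Pi.single_apply]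
  conv_lhs => rw [hw]
  rw [map_sum]
  exact Finset.sum_congr rfl fun m _ => by rw [map_smul, smul_eq_mul, mul_comm]

theorem jdet_comp {n : ℕ} {f : Fin n → E n → ℝ} {Φ : E n → E n} {y : E n}
    (hf : ∀ k, DifferentiableAt ℝ (f k) (Φ y)) (hΦ : DifferentiableAt ℝ Φ y) :
    jdet (fun k y' => f k (Φ y')) y = jdet f (Φ y) * (fderiv ℝ Φ y).det := by
  unfold jdet
  rw [← det_mat, ← Matrix.det_mul]
  congr 1
  ext i k
  rw [Matrix.mul_apply, Matrix.of_apply, pd_comp (hf i) hΦ]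
  rfl

/-- Block B4b. -/
theorem main : SpecPt := by
  intro n M N X W Γ I I' _ _ _ _ _ _ _ _ _ _ _ C C' F hF G hG P P' hP hPP l hl i γ y j γ₀ Φ hΦ h
  have hy : F (C'.ψ i y) = γ₀ • C.ψ j (Φ y) := h.self_of_nhds
  have e0 : C'.rep (P'.fn (l 0)) γ i y = P'.φ () (γ • C'.ψ i y) := by
    rw [Cov.rep, PUX.fn, hl]; simp
  have hn : 0 ≤ P'.φ () (γ • C'.ψ i y) := by rw [hPP]; exact hP _
  have e1 : jdet (fun k : Fin n => C'.rep (P'.fn (l k.succ)) γ i) y =
      jdet (fun k : Fin n => C.rep (P.fn (l k.succ)) (γ * γ₀) j) (Φ y) * (fderiv ℝ Φ y).det := by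
    have hd : ∀ k : Fin n, DifferentiableAt ℝ (C.rep (P.fn (l k.succ)) (γ * γ₀) j) (Φ y) :=
      fun k => (Ck_smul C (P.smooth ()) (l k.succ).1⁻¹ (γ * γ₀) j).differentiable
        one_ne_zero (Φ y)
    rw [← jdet_comp hd hΦ]
    refine jdet_congr fun k => ?_
    filter_upwards [h] with y' hy'
    show P'.φ () ((l k.succ).1⁻¹ • γ • C'.ψ i y') =
      P.φ () ((l k.succ).1⁻¹ • (γ * γ₀) • C.ψ j (Φ y'))
    rw [hPP, hF.equiv, hF.equiv, hy', mul_smul]
  have e2 : ∀ k : Fin n, gradSq (G j) (C.rep (P.fn (l k.succ)) (γ * γ₀) j) (Φ y) =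
      gsX C G (P.φ ()) (F ((l k.succ).1⁻¹ • γ • C'.ψ i y)) := by
    intro k
    rw [← gsX_eq hG, hF.equiv, hF.equiv, hy, ← mul_smul γ γ₀]
    exact gsX_smul hG (P.φ ()) (l k.succ).1⁻¹ ((γ * γ₀) • C.ψ j (Φ y))
  have h1 := Norm.jdet_le (G j) (fun k => C.rep (P.fn (l k.succ)) (γ * γ₀) j) (Φ y) (hG.pos j _)
  simp only [e2] at h1
  rw [e0, e1, abs_mul, abs_mul, abs_of_nonneg hn,
    ← ENNReal.ofReal_prod_of_nonneg fun i _ => Real.sqrt_nonneg _, ← ENNReal.ofReal_mul hn,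
    ← ENNReal.ofReal_mul (mul_nonneg hn (Finset.prod_nonneg fun i _ => Real.sqrt_nonneg _))]
  refine ENNReal.ofReal_le_ofReal ?_
  rw [mul_assoc]
  refine mul_le_mul_of_nonneg_left ?_ hn
  rw [← mul_assoc]
  refine mul_le_mul_of_nonneg_right ?_ (abs_nonneg _)
  rw [mul_comm]
  exact h1

end Vale.Agent.P223.R2.H359.Pt
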